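import Vale.Agent.P207.N5.H469.Dlt
import Vale.Agent.P207.N5.H832.RateP
import Vale.Agent.P207.N5.H832.AngP

/-!
# P207, line N5, row T2-GLUE: `T2d` over `PicG`, without hypotheses
-/

set_option linter.unusedSectionVars false

open Set Filter Topology Metric
open scoped ContDiff

noncomputable section

namespace Vale.Agent.P207.N4.V.H469

open Vale.Agent.P207.N3 Vale.Agent.P207.H469

variable [Dim]

variable {Γ X B : Type} [Group Γ] [MetricSpace X] [ProperSpace X] [MulAction Γ X]
  [IsIsometricSMul Γ X] [TopologicalSpace B] [CompactSpace B] [T2Space B] [MulAction Γ B]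
  [ContinuousConstSMul Γ B] [MeasurableSpace B] [BorelSpace B] {L : Leaf Γ X B}
  {V : Type} [NormedAddCommGroup V] [NormedSpace ℝ V] [FiniteDimensional ℝ V]

/-- the rates of the angle -/
theorem angR (P : PicG L V) : AngR P.toPic := H832.ang_r P

/-- **(T2d)** -/
theorem t2dG (P : PicG L V) (ε₀ : ℝ) : P.toPic.T2d ε₀ :=
  t2d (H832.rateP P.toPic) (angR P) ε₀

/-- the Harnack inequality for the angle -/
theorem harnackG (P : PicG L V) : ∃ H, 0 < H ∧ ∀ x ξ, 0 < P.toPic.Bu.nu x ξ 0 →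
    ∀ q ∈ ball (0 : E2) 1, ‖P.toPic.gr x ξ q‖ ≤ H * ‖P.toPic.gr x ξ 0‖ :=
  harnack (H832.rateP P.toPic) (angR P)

end Vale.Agent.P207.N4.V.H469

end
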