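import Vale.Agent.P207.N5.H469.T2n
import Vale.Agent.P207.N5.H709.T2h

/-!
# P207, line N5, row T2-GLUE: the input `DeltaP`

`D_formula` : `D ξ η - D (em x) η - (b ξ x - b (em x) x) - dl x ξ q = F q' - F q`, exactly, where
`η = pt x q`, `F = b_ξ + b_η` on the disc of `x` and `q'` is the crossing of the geodesic `(ξ, η)`.
`deltaP` : it is at most `K * ‖gr x ξ q‖ ^ 2`.
-/

set_option linter.unusedSectionVars false

open Set Filter Topology Metric
open scoped ContDiff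

noncomputable section

namespace Vale.Agent.P207.N4.V.H469

open Vale.Agent.P207.N3 Vale.Agent.P207.H469

variable [Dim]

set_option maxSynthPendingDepth 3 in
/-- near a critical point -/
theorem quad_crit {F : E2 → ℝ} {M : ℝ} (hF : ∀ w ∈ closedBall (0 : E2) 2, ContDiffAt ℝ 2 F w)
    (hM : ∀ w ∈ closedBall (0 : E2) 2, ‖iteratedFDeriv ℝ 2 F w‖ ≤ M) {q q' : E2}
    (hq : q ∈ closedBall (0 : E2) 2) (hq' : q' ∈ closedBall (0 : E2) 2)
    (h0 : fderiv ℝ F q' = 0) : |F q - F q'| ≤ M * ‖q - q'‖ ^ 2 := by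
  have hd : ∀ w ∈ closedBall (0 : E2) 2, DifferentiableAt ℝ (fderiv ℝ F) w := fun w hw =>
    ((hF w hw).fderiv_right (m := 1) (by norm_num)).differentiableAt (by norm_num)
  have hM0 : 0 ≤ M := (norm_nonneg _).trans (hM q hq)
  have hM' : ∀ w ∈ closedBall (0 : E2) 2, ‖fderiv ℝ (fderiv ℝ F) w‖ ≤ M := fun w hw => by
    rw [← norm_iteratedFDeriv_one, norm_iteratedFDeriv_fderiv]
    exact hM w hw
  have hseg : segment ℝ q' q ⊆ closedBall (0 : E2) 2 :=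
    (convex_closedBall _ _).segment_subset hq' hq
  have h1 : ∀ w ∈ segment ℝ q' q, ‖fderiv ℝ F w‖ ≤ M * ‖q - q'‖ := by
    intro w hw
    have h2 : ‖fderiv ℝ F w - fderiv ℝ F q'‖ ≤ M * ‖w - q'‖ :=
      (convex_closedBall (0 : E2) 2).norm_image_sub_le_of_norm_fderiv_le hd hM' hq' (hseg hw)
    rw [h0, sub_zero] at h2
    refine h2.trans ?_
    gcongr
    exact norm_sub_le_of_mem_segment hw
  have h2 := (convex_segment q' q).norm_image_sub_le_of_norm_fderiv_le (f := F)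
    (fun w hw => (hF w (hseg hw)).differentiableAt (by norm_num)) h1
    (left_mem_segment ℝ q' q) (right_mem_segment ℝ q' q)
  rw [Real.norm_eq_abs] at h2
  calc |F q - F q'| ≤ M * ‖q - q'‖ * ‖q - q'‖ := h2
    _ = M * ‖q - q'‖ ^ 2 := by ring

variable {Γ X B : Type} [Group Γ] [MetricSpace X] [ProperSpace X] [MulAction Γ X]
  [IsIsometricSMul Γ X] [TopologicalSpace B] [CompactSpace B] [T2Space B] [MulAction Γ B]
  [ContinuousConstSMul Γ B] [MeasurableSpace B] [BorelSpace B] {L : Leaf Γ X B}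
  {V : Type} [NormedAddCommGroup V] [NormedSpace ℝ V] [FiniteDimensional ℝ V]

variable (P : Pic L V)

/-- `D` in terms of the Busemann functions of the disc -/
theorem D_eq_of (x : X) (ξ : B) {q : E2} (hT : (x, q) ∈ P.Af.dT) :
    P.S.A.D ξ (P.Th x ξ q) =
      P.Bu.b ξ x + P.Bu.b (P.Th x ξ q) x + P.Sq x ξ (P.Th x ξ q) q := by
  obtain ⟨z, h1, h2, h3⟩ := P.Bu.exists_fr x ξ (P.dsc x q) (P.mem3 hT)
  have h4 : L.ep z = P.Th x ξ q := h2
  have h5 := P.S.A.D_eq z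
  rw [← P.Bu.b_em z, ← P.Bu.b_ep z, h1, h4, h3 ξ, h3 (P.Th x ξ q)] at h5
  rw [h5, Pic.Sq, Pic.bq, Pic.bq]
  ring

theorem D_formula (x : X) (ξ : B) {q q' : E2} (hT : (x, q) ∈ P.Af.dT) (hT' : (x, q') ∈ P.Af.dT)
    (h : P.Th x ξ q' = P.Af.pt x q) :
    P.S.A.D ξ (P.Af.pt x q) - P.S.A.D (L.em x) (P.Af.pt x q) -
      (P.Bu.b ξ x - P.Bu.b (L.em x) x) - P.dl x ξ q =
    P.Sq x ξ (P.Af.pt x q) q' - P.Sq x ξ (P.Af.pt x q) q := by
  have h1 := D_eq_of P x ξ hT'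
  have h2 := D_eq_of P x (L.em x) hT
  rw [h] at h1
  rw [P.Th_em x hT] at h2
  rw [h1, h2, Pic.Sq, Pic.Sq, Pic.Sq, Pic.dl]
  ring

/-- **(DELTA)** the function `D`, to the first order -/
theorem deltaP : DeltaP P := by
  obtain ⟨ε₁, hε₁, K, hK, h⟩ := H709.exists_hq P (ε := 1) one_pos
  have h2 := P.Af.two_lt_rad
  obtain ⟨M, hM⟩ := P.bq_bound (r := 2) h2 2
  refine ⟨ε₁, hε₁, 2 * |M| * K ^ 2, by positivity, fun x ξ hx q hq => ?_⟩
  have hq2 : q ∈ closedBall (0 : E2) 2 :=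
    closedBall_subset_closedBall (by norm_num) (ball_subset_closedBall hq)
  have hq7 : q ∈ closedBall (0 : E2) (7 / 4) :=
    closedBall_subset_closedBall (by norm_num) (ball_subset_closedBall hq)
  obtain ⟨h3, h4, -, -, h5, -⟩ := h x ξ hx q hq7
  set q' := P.Hq x ξ q with hq'
  have hq'2 : q' ∈ closedBall (0 : E2) 2 := ball_subset_closedBall h3
  have hT := P.Af.closedBall_dT x hq2
  have hT' := P.Af.closedBall_dT x hq'2
  rw [D_formula P x ξ hT hT' h4, abs_sub_comm]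
  set η := P.Af.pt x q with hη
  have s1 : ∀ ζ, ∀ w ∈ closedBall (0 : E2) 2, ContDiffAt ℝ 2 (P.bq x ζ) w := fun ζ w hw =>
    (P.bq_smooth x ζ (P.Af.closedBall_dT x hw)).of_le Pic.two_le_infty
  have h6 := quad_crit (F := P.Sq x ξ η) (M := 2 * |M|) (q := q) (q' := q')
    (fun w hw => (s1 ξ w hw).add (s1 η w hw)) (fun w hw => ?_) hq2 hq'2 ?_
  · refine h6.trans ?_
    have h7 : ‖q - q'‖ ^ 2 ≤ (K * ‖P.gr x ξ q‖) ^ 2 := by
      rw [norm_sub_rev]
      exact pow_le_pow_left₀ (norm_nonneg _) h5 2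
    calc 2 * |M| * ‖q - q'‖ ^ 2 ≤ 2 * |M| * (K * ‖P.gr x ξ q‖) ^ 2 := by gcongr
      _ = 2 * |M| * K ^ 2 * ‖P.gr x ξ q‖ ^ 2 := by ring
  · have e1 : iteratedFDeriv ℝ 2 (P.Sq x ξ η) w = iteratedFDeriv ℝ 2 (P.bq x ξ) w +
        iteratedFDeriv ℝ 2 (P.bq x η) w :=
      iteratedFDeriv_add_apply (i := 2) (s1 ξ w hw) (s1 η w hw)
    rw [e1]
    have h7 := (hM x ξ w hw).trans (le_abs_self M)
    have h8 := (hM x η w hw).trans (le_abs_self M)
    exact (norm_add_le _ _).trans (by linarith)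
  · exact H709.fderiv_zero_of_gradient (H709.Sq_grad P x ξ hT' h4)

variable {P}

/-- **(T2d)** from the rates. -/
theorem t2d (hR : P.RateP) (hA : AngR P) (ε₀ : ℝ) : P.T2d ε₀ :=
  t2d_of (dlB P) hR hA (deltaP P) (nearP P) ε₀

/-- the Harnack inequality for the angle, from the rates. -/
theorem harnack (hR : P.RateP) (hA : AngR P) : ∃ H, 0 < H ∧ ∀ x ξ, 0 < P.Bu.nu x ξ 0 →
    ∀ q ∈ ball (0 : E2) 1, ‖P.gr x ξ q‖ ≤ H * ‖P.gr x ξ 0‖ :=
  harnack_of (dlB P) hR hA (deltaP P) (nearP P)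

end Vale.Agent.P207.N4.V.H469

end
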